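import Mathlib
import Vale.Agent.Lib.P243.Defs
import Vale.Agent.Lib.P243.Frame

/-!
# P243, fan counterexample: absolute areas of linear and affine images of planar sets
-/

open Set MeasureTheory Measure Module
open scoped RealInnerProductSpace ENNReal

namespace Vale.Agent.Lib.P243.Fan

open Vale.Agent.Lib.P243

/-- Lebesgue measure of the image of a planar set under an upper triangular linear map. -/
lemma volume_image_tri (a b h : ℝ) (S : Set (ℝ × ℝ)) :
    volume ((fun z : ℝ × ℝ => (a * z.1 + b * z.2, h * z.2)) '' S)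
      = ENNReal.ofReal |a * h| * volume S := by
  have hH2 : (volume : Measure (ℝ × ℝ)).IsAddHaarMeasure := by
    rw [Measure.volume_eq_prod]; infer_instance
  have key := Measure.addHaar_image_linearMap (volume : Measure (ℝ × ℝ))
    (Matrix.toLin (Basis.finTwoProd ℝ) (Basis.finTwoProd ℝ) !![a, b; 0, h]) S
  rw [LinearMap.det_toLin, Matrix.det_fin_two_of] at key
  have e : (fun z : ℝ × ℝ => (a * z.1 + b * z.2, h * z.2))
      = ⇑(Matrix.toLin (Basis.finTwoProd ℝ) (Basis.finTwoProd ℝ) !![a, b; 0, h]) := by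
    funext z
    rw [Matrix.toLin_finTwoProd_apply]
    simp
  rw [e, key]
  simp

/-- The area of the image of a planar set under the linear map `z ↦ z.1 • p + z.2 • q`. -/
theorem area_image_lin (p q : E3) (hpq : 0 < ‖p‖ ^ 2 * ‖q‖ ^ 2 - ⟪p, q⟫ ^ 2) (S : Set (ℝ × ℝ)) :
    area ((fun z : ℝ × ℝ => z.1 • p + z.2 • q) '' S)
      = ENNReal.ofReal (Real.sqrt (‖p‖ ^ 2 * ‖q‖ ^ 2 - ⟪p, q⟫ ^ 2)) * volume S := by
  have hp0 : p ≠ 0 := by
    rintro rfl
    simp at hpq
  set a : ℝ := ‖p‖ with ha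
  have ha0 : 0 < a := norm_pos_iff.2 hp0
  set n : E3 := a⁻¹ • p with hn
  have hpn : p = a • n := by
    rw [hn, smul_smul, mul_inv_cancel₀ ha0.ne', one_smul]
  have hn1 : ‖n‖ = 1 := by
    rw [hn, norm_smul, norm_inv, Real.norm_eq_abs, abs_of_pos ha0, ← ha,
      inv_mul_cancel₀ ha0.ne']
  set b : ℝ := ⟪q, n⟫ with hb
  have hbpq : ⟪p, q⟫ = a * b := by
    rw [hb, hpn, inner_smul_left, real_inner_comm]
    simp
  set r : E3 := q - b • n with hr
  have hrn : ⟪r, n⟫ = 0 := by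
    rw [hr, inner_sub_left, inner_smul_left, real_inner_self_eq_norm_sq, hn1]
    simp [hb]
  have hr2 : ‖r‖ ^ 2 = ‖q‖ ^ 2 - b ^ 2 := by
    rw [hr, norm_sub_sq_real, norm_smul, hn1, inner_smul_right, ← hb]
    simp only [Real.norm_eq_abs, mul_one, sq_abs]
    ring
  have hG : ‖p‖ ^ 2 * ‖q‖ ^ 2 - ⟪p, q⟫ ^ 2 = (a * ‖r‖) ^ 2 := by
    rw [hbpq, mul_pow a ‖r‖, hr2, ← ha]
    ring
  have hr0 : 0 < ‖r‖ := by
    rcases (norm_nonneg r).eq_or_lt with h | h
    · rw [hG, ← h] at hpq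
      simp at hpq
    · exact h
  set h : ℝ := ‖r‖ with hh
  set ν : E3 := h⁻¹ • r with hν
  have hrν : r = h • ν := by
    rw [hν, smul_smul, mul_inv_cancel₀ hr0.ne', one_smul]
  have hν1 : ‖ν‖ = 1 := by
    rw [hν, norm_smul, norm_inv, Real.norm_eq_abs, abs_of_pos hr0, ← hh,
      inv_mul_cancel₀ hr0.ne']
  have hνn : ⟪ν, n⟫ = 0 := by
    rw [hν, inner_smul_left, hrn, mul_zero]
  have hq : q = b • n + h • ν := by
    rw [← hrν, hr]; abel
  have himg : (fun z : ℝ × ℝ => z.1 • p + z.2 • q) '' S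
      = (fun w : ℝ × ℝ => w.1 • n + w.2 • ν) ''
          ((fun z : ℝ × ℝ => (a * z.1 + b * z.2, h * z.2)) '' S) := by
    rw [image_image]
    apply image_congr
    intro z _
    show z.1 • p + z.2 • q = (a * z.1 + b * z.2) • n + (h * z.2) • ν
    conv_lhs => rw [hpn, hq]
    simp only [smul_add, smul_smul, add_smul]
    rw [mul_comm z.1 a, mul_comm z.2 b, mul_comm z.2 h]
    abel
  rw [himg, area_image hn1 hν1 hνn, volume_image_tri, hG,
    Real.sqrt_sq (mul_nonneg ha0.le hr0.le), abs_of_nonneg (mul_nonneg ha0.le hr0.le)]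

/-- Areas are translation invariant. -/
lemma area_translate (o : E3) (A : Set E3) : area ((fun y => o + y) '' A) = area A := by
  unfold area
  exact (isometry_add_left o).euclideanHausdorffMeasure_image A

/-- The area of the image of a planar set under the affine map `z ↦ o + z.1 • p + z.2 • q`. -/
theorem area_image_aff (o p q : E3) (hpq : 0 < ‖p‖ ^ 2 * ‖q‖ ^ 2 - ⟪p, q⟫ ^ 2)
    (S : Set (ℝ × ℝ)) :
    area ((fun z : ℝ × ℝ => o + (z.1 • p + z.2 • q)) '' S)
      = ENNReal.ofReal (Real.sqrt (‖p‖ ^ 2 * ‖q‖ ^ 2 - ⟪p, q⟫ ^ 2)) * volume S := by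
  rw [← area_image_lin p q hpq S,
    ← area_translate o ((fun z : ℝ × ℝ => z.1 • p + z.2 • q) '' S), image_image]

end Vale.Agent.Lib.P243.Fan
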