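import Mathlib
import Vale.Agent.Lib.P243.Frame
import Vale.Agent.Lib.P243.MinPos
import Vale.Agent.Lib.P243.Counter.Chart
import Vale.Agent.Lib.P243.Counter.Model

/-!
# P243, fan construction: absolute areas in linear charts

If `u` is a unit vector and `a, c ⟂ u` are linearly independent, then areas in the plane `u^⊥` are
planar Lebesgue measure read in the chart `x ↦ (⟪a, x⟫, ⟪c, x⟫)` divided by the square root of the
Gram determinant `‖a‖² ‖c‖² - ⟪a, c⟫²`.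
-/

open MeasureTheory Measure Set Module
open scoped ENNReal RealInnerProductSpace

namespace Vale.Agent.Lib.P243.Fan

open Vale.Agent.Lib.P243 Vale.Agent.Lib.P243.Counter

/-- determinant of a linear self-map of `ℝ × ℝ` -/
lemma det_prod (f : ℝ × ℝ →ₗ[ℝ] ℝ × ℝ) :
    LinearMap.det f = (f (1, 0)).1 * (f (0, 1)).2 - (f (0, 1)).1 * (f (1, 0)).2 := by
  rw [← LinearMap.det_toMatrix (Basis.finTwoProd ℝ) f, Matrix.det_fin_two]
  simp [LinearMap.toMatrix_apply]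

theorem abs_chart {u a c : E3} (hu : ‖u‖ = 1) (ha : ⟪a, u⟫ = 0) (hc : ⟪c, u⟫ = 0)
    (hG : 0 < ‖a‖ ^ 2 * ‖c‖ ^ 2 - ⟪a, c⟫ ^ 2) :
    (∀ z : E3, P a c z = 0 → inner ℝ u z = 0 → z = 0) ∧
    (∀ S : Set (ℝ × ℝ), area (base u (P a c) S)
        = volume S / ENNReal.ofReal (√(‖a‖ ^ 2 * ‖c‖ ^ 2 - ⟪a, c⟫ ^ 2))) ∧
    (∀ K : Set E3, area (shadow u K)
        = volume (P a c '' K) / ENNReal.ofReal (√(‖a‖ ^ 2 * ‖c‖ ^ 2 - ⟪a, c⟫ ^ 2))) := by
  obtain ⟨n, -, hn, -, -, hun, -⟩ := exists_pair hu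
  obtain ⟨ν, hν, hνn, hνu, hexp⟩ := exists_frame hn hu hun
  have hpars : ∀ x y : E3, ⟪x, y⟫ = ⟪x, n⟫ * ⟪y, n⟫ + ⟪x, ν⟫ * ⟪y, ν⟫ + ⟪x, u⟫ * ⟪y, u⟫ := by
    intro x y
    conv_lhs => rw [hexp y]
    rw [inner_add_right, inner_add_right, inner_smul_right, inner_smul_right, inner_smul_right]
    ring
  set a1 := ⟪a, n⟫ with ha1
  set a2 := ⟪a, ν⟫ with ha2
  set c1 := ⟪c, n⟫ with hc1
  set c2 := ⟪c, ν⟫ with hc2
  have hna : ‖a‖ ^ 2 = a1 ^ 2 + a2 ^ 2 := by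
    rw [← real_inner_self_eq_norm_sq, hpars a a, ha]; ring
  have hnc : ‖c‖ ^ 2 = c1 ^ 2 + c2 ^ 2 := by
    rw [← real_inner_self_eq_norm_sq, hpars c c, hc]; ring
  have hac : ⟪a, c⟫ = a1 * c1 + a2 * c2 := by
    rw [hpars a c, ha]; ring
  have hdet : ‖a‖ ^ 2 * ‖c‖ ^ 2 - ⟪a, c⟫ ^ 2 = (a1 * c2 - a2 * c1) ^ 2 := by
    rw [hna, hnc, hac]; ring
  have hD : a1 * c2 - a2 * c1 ≠ 0 := by
    intro h
    rw [hdet, h] at hG
    norm_num at hG
  have hker : ∀ z : E3, P a c z = 0 → inner ℝ u z = 0 → z = 0 := by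
    intro z hz hzu
    rw [P_apply, Prod.mk_eq_zero] at hz
    have hzu' : ⟪z, u⟫ = 0 := by rw [real_inner_comm]; exact hzu
    have e1 : a1 * ⟪z, n⟫ + a2 * ⟪z, ν⟫ = 0 := by
      have := hpars a z
      rw [hz.1, ha] at this
      linarith
    have e2 : c1 * ⟪z, n⟫ + c2 * ⟪z, ν⟫ = 0 := by
      have := hpars c z
      rw [hz.2, hc] at this
      linarith
    have z1 : ⟪z, n⟫ = 0 := by
      have : (a1 * c2 - a2 * c1) * ⟪z, n⟫ = 0 := by linear_combination c2 * e1 - a2 * e2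
      exact (mul_eq_zero.1 this).resolve_left hD
    have z2 : ⟪z, ν⟫ = 0 := by
      have : (a1 * c2 - a2 * c1) * ⟪z, ν⟫ = 0 := by linear_combination a1 * e2 - c1 * e1
      exact (mul_eq_zero.1 this).resolve_left hD
    rw [hexp z, z1, z2, hzu']
    simp
  have hπu : P a c u = 0 := by
    rw [P_apply, ha, hc]; rfl
  obtain ⟨k, hk0, hkt, hbase, hshadow⟩ := chart hu (P a c) hπu hker
  -- calibration of the constant
  let F : ℝ × ℝ →ₗ[ℝ] E3 :=
    (LinearMap.fst ℝ ℝ ℝ).smulRight n + (LinearMap.snd ℝ ℝ ℝ).smulRight ν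
  have hF : ∀ p : ℝ × ℝ, F p = p.1 • n + p.2 • ν := fun p => rfl
  let L : ℝ × ℝ →ₗ[ℝ] ℝ × ℝ := (P a c).toLinearMap ∘ₗ F
  have hL : ∀ p, L p = P a c (F p) := fun p => rfl
  have hLdet : LinearMap.det L = a1 * c2 - a2 * c1 := by
    rw [det_prod, hL, hL, hF, hF, P_apply, P_apply]
    simp only [one_smul, zero_smul, add_zero, zero_add]
    rfl
  set T0 : Set (ℝ × ℝ) := Icc (0 : ℝ) 1 ×ˢ Icc (0 : ℝ) 1 with hT0
  have hvT0 : volume T0 = 1 := by
    rw [hT0, Measure.volume_eq_prod, Measure.prod_prod, Real.volume_Icc]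
    simp
  have hbaseT : base u (P a c) (L '' T0) = (fun p : ℝ × ℝ => p.1 • n + p.2 • ν) '' T0 := by
    ext x
    constructor
    · rintro ⟨hx, p, hp, hpx⟩
      refine ⟨p, hp, ?_⟩
      have hxu : inner ℝ u x = 0 := Submodule.mem_orthogonal_singleton_iff_inner_right.1 hx
      have h0 : F p - x = 0 := by
        apply hker
        · rw [map_sub, ← hL, hpx, sub_self]
        · rw [inner_sub_right, hxu, hF, inner_add_right, inner_smul_right, inner_smul_right, hun,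
            real_inner_comm, hνu]
          simp
      exact sub_eq_zero.1 h0
    · rintro ⟨p, hp, rfl⟩
      refine ⟨?_, p, hp, rfl⟩
      show _ ∈ ((ℝ ∙ u)ᗮ : Submodule ℝ E3)
      rw [Submodule.mem_orthogonal_singleton_iff_inner_right, inner_add_right, inner_smul_right,
        inner_smul_right, hun, real_inner_comm, hνu]
      simp
  have hcal : k * ENNReal.ofReal |a1 * c2 - a2 * c1| = 1 := by
    have h1 := hbase (L '' T0)
    rw [hbaseT, area_image hn hν hνn, hvT0, Measure.addHaar_image_linearMap, hvT0, hLdet,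
      mul_one] at h1
    exact h1.symm
  have hsqrt : √(‖a‖ ^ 2 * ‖c‖ ^ 2 - ⟪a, c⟫ ^ 2) = |a1 * c2 - a2 * c1| := by
    rw [hdet, Real.sqrt_sq_eq_abs]
  have hk : k = (ENNReal.ofReal |a1 * c2 - a2 * c1|)⁻¹ := ENNReal.eq_inv_of_mul_eq_one_left hcal
  refine ⟨hker, ?_, ?_⟩
  · intro S
    rw [hbase, hsqrt, hk, ENNReal.div_eq_inv_mul]
  · intro K
    rw [hshadow, hsqrt, hk, ENNReal.div_eq_inv_mul]

end Vale.Agent.Lib.P243.Fan
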