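import Mathlib

/-!
P243 Fan: planar area lower bounds.  A convex planar set containing `P0, P0+E, P0+F, P0+G` has
area at least `|det (E, F - G)| / 2` (two triangles over the common side `E`).
-/

open MeasureTheory Measure Set
open scoped ENNReal

namespace Vale.Agent.Lib.P243.Fan12

/-- the planar determinant -/
def det2 (E F : ℝ × ℝ) : ℝ := E.1 * F.2 - E.2 * F.1

/-- the half-open standard triangle -/
def Dl : Set (ℝ × ℝ) := {p | 0 ≤ p.1 ∧ 0 < p.2 ∧ p.1 + p.2 ≤ 1}

lemma half_le_volume_Dl : ENNReal.ofReal (1 / 2) ≤ volume Dl := by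
  have hsub : regionBetween (fun _ : ℝ => (0 : ℝ)) (fun p : ℝ => 1 - p) (Ioc (0 : ℝ) 1) ⊆ Dl := by
    rintro ⟨a, b⟩ ⟨h1, h2⟩
    simp only [mem_Ioc, mem_Ioo] at h1 h2
    exact ⟨h1.1.le, h2.1, by show a + b ≤ 1; linarith [h2.2]⟩
  refine le_trans (le_of_eq ?_) (measure_mono hsub)
  have hf : IntegrableOn (fun _ : ℝ => (0 : ℝ)) (Ioc (0 : ℝ) 1) volume :=
    (Continuous.integrableOn_Icc (by fun_prop)).mono_set Ioc_subset_Icc_self
  have hg : IntegrableOn (fun p : ℝ => 1 - p) (Ioc (0 : ℝ) 1) volume :=
    (Continuous.integrableOn_Icc (by fun_prop)).mono_set Ioc_subset_Icc_self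
  rw [Measure.volume_eq_prod, volume_regionBetween_eq_integral hf hg measurableSet_Ioc]
  · congr 1
    rw [← intervalIntegral.integral_of_le (by norm_num)]
    have : ∀ p : ℝ, ((fun p : ℝ => 1 - p) - fun _ : ℝ => (0 : ℝ)) p = 1 - p := by
      intro p
      simp only [Pi.sub_apply]
      ring
    simp_rw [this]
    rw [intervalIntegral.integral_sub (Continuous.intervalIntegrable (by fun_prop) _ _)
      (Continuous.intervalIntegrable (by fun_prop) _ _), integral_id]
    simp
    norm_num
  · intro p hp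
    simp only [mem_Ioc] at hp
    linarith [hp.2]

/-- the affine image of the standard triangle -/
def triIm (P0 E F : ℝ × ℝ) : Set (ℝ × ℝ) := (fun p : ℝ × ℝ => P0 + (p.1 • E + p.2 • F)) '' Dl

lemma volume_triIm_ge (P0 E F : ℝ × ℝ) :
    ENNReal.ofReal (|det2 E F| / 2) ≤ volume (triIm P0 E F) := by
  have hH2 : (volume : Measure (ℝ × ℝ)).IsAddHaarMeasure := by
    rw [Measure.volume_eq_prod]; infer_instance
  let L : (ℝ × ℝ) →ₗ[ℝ] (ℝ × ℝ) :=
    Matrix.toLin (Module.Basis.finTwoProd ℝ) (Module.Basis.finTwoProd ℝ) !![E.1, F.1; E.2, F.2]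
  have hL : ∀ p : ℝ × ℝ, L p = p.1 • E + p.2 • F := by
    intro p
    simp only [L, Matrix.toLin_finTwoProd_apply]
    ext <;> simp <;> ring
  have hdet : LinearMap.det L = det2 E F := by
    simp only [L, LinearMap.det_toLin, Matrix.det_fin_two_of, det2]
    ring
  have him : triIm P0 E F = (fun x => P0 + x) '' (L '' Dl) := by
    unfold triIm
    rw [image_image]
    apply image_congr
    intro p _
    rw [hL]
  rw [him, image_add_left, measure_preimage_add, addHaar_image_linearMap, hdet]
  calc ENNReal.ofReal (|det2 E F| / 2) = ENNReal.ofReal |det2 E F| * ENNReal.ofReal (1 / 2) := by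
        rw [← ENNReal.ofReal_mul (abs_nonneg _)]
        congr 1; ring
    _ ≤ ENNReal.ofReal |det2 E F| * volume Dl := by gcongr; exact half_le_volume_Dl

lemma triIm_subset {U : Set (ℝ × ℝ)} (hU : Convex ℝ U) {P0 E F : ℝ × ℝ} (h0 : P0 ∈ U)
    (h1 : P0 + E ∈ U) (h2 : P0 + F ∈ U) : triIm P0 E F ⊆ U := by
  rintro _ ⟨p, ⟨hp1, hp2, hp3⟩, rfl⟩
  have h12 : (p.1 / (p.1 + p.2)) • (P0 + E) + (p.2 / (p.1 + p.2)) • (P0 + F) ∈ U := by
    apply hU h1 h2 (by positivity) (by positivity)
    field_simp
  have := hU h0 h12 (show 0 ≤ 1 - (p.1 + p.2) by linarith) (show 0 ≤ p.1 + p.2 by linarith)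
    (by ring)
  convert this using 1
  have hne : p.1 + p.2 ≠ 0 := by linarith
  ext
  · simp only [Prod.fst_add, Prod.smul_fst, smul_eq_mul]
    field_simp
    ring
  · simp only [Prod.snd_add, Prod.smul_snd, smul_eq_mul]
    field_simp
    ring

lemma det2_triIm (P0 E F : ℝ × ℝ) (p : ℝ × ℝ) :
    det2 E (P0 + (p.1 • E + p.2 • F) - P0) = p.2 * det2 E F := by
  simp only [det2, Prod.fst_add, Prod.snd_add, Prod.smul_fst, Prod.smul_snd, smul_eq_mul,
    Prod.fst_sub, Prod.snd_sub]
  ring

/-- A convex planar set containing `P0, P0+E, P0+F, P0+G` has area at least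
`|det (E, F) - det (E, G)| / 2`. -/
theorem quad_area {U : Set (ℝ × ℝ)} (hU : Convex ℝ U) {P0 E F G : ℝ × ℝ} (h0 : P0 ∈ U)
    (h1 : P0 + E ∈ U) (h2 : P0 + F ∈ U) (h3 : P0 + G ∈ U) :
    ENNReal.ofReal (|det2 E F - det2 E G| / 2) ≤ volume U := by
  have hF := (volume_triIm_ge P0 E F).trans (measure_mono (triIm_subset hU h0 h1 h2))
  have hG := (volume_triIm_ge P0 E G).trans (measure_mono (triIm_subset hU h0 h1 h3))
  by_cases hs : 0 ≤ det2 E F * det2 E G
  · -- same sign: the bigger triangle suffices
    have hmax : |det2 E F - det2 E G| ≤ max |det2 E F| |det2 E G| := by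
      rcases le_total 0 (det2 E F) with hf | hf <;> rcases le_total 0 (det2 E G) with hg | hg
      · rw [abs_of_nonneg hf, abs_of_nonneg hg, abs_le]
        constructor
        · have := le_max_right (det2 E F) (det2 E G); linarith
        · have := le_max_left (det2 E F) (det2 E G); linarith
      · have h0' : det2 E F * det2 E G = 0 := le_antisymm (mul_nonpos_of_nonneg_of_nonpos hf hg) hs
        rcases mul_eq_zero.1 h0' with h | h
        · rw [h]; simp
        · rw [h]; simp
      · have h0' : det2 E F * det2 E G = 0 := le_antisymm (mul_nonpos_of_nonpos_of_nonneg hf hg) hs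
        rcases mul_eq_zero.1 h0' with h | h
        · rw [h]; simp
        · rw [h]; simp
      · rw [abs_of_nonpos hf, abs_of_nonpos hg, abs_le]
        constructor
        · have := le_max_left (-det2 E F) (-det2 E G); linarith
        · have := le_max_right (-det2 E F) (-det2 E G); linarith
    rcases le_total |det2 E F| |det2 E G| with h | h
    · rw [max_eq_right h] at hmax
      exact (ENNReal.ofReal_le_ofReal (by linarith)).trans hG
    · rw [max_eq_left h] at hmax
      exact (ENNReal.ofReal_le_ofReal (by linarith)).trans hF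
  · -- opposite signs: the two triangles lie on different sides of a line
    rw [not_le] at hs
    set H : Set (ℝ × ℝ) := {x | 0 < det2 E F * det2 E (x - P0)} with hH
    have hHm : MeasurableSet H := by
      apply IsOpen.measurableSet
      apply isOpen_lt continuous_const
      unfold det2
      fun_prop
    have hFne : det2 E F ≠ 0 := by
      intro h; rw [h] at hs; simp at hs
    have s1 : triIm P0 E F ⊆ U ∩ H := by
      intro x hx
      refine ⟨triIm_subset hU h0 h1 h2 hx, ?_⟩
      obtain ⟨p, ⟨_, hp2, _⟩, rfl⟩ := hx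
      show 0 < det2 E F * det2 E (P0 + (p.1 • E + p.2 • F) - P0)
      rw [det2_triIm]
      have : 0 < det2 E F * det2 E F := mul_self_pos.2 hFne
      nlinarith
    have s2 : triIm P0 E G ⊆ U \ H := by
      intro x hx
      refine ⟨triIm_subset hU h0 h1 h3 hx, ?_⟩
      obtain ⟨p, ⟨_, hp2, _⟩, rfl⟩ := hx
      show ¬ (0 < det2 E F * det2 E (P0 + (p.1 • E + p.2 • G) - P0))
      rw [det2_triIm]
      nlinarith
    have habs : |det2 E F - det2 E G| = |det2 E F| + |det2 E G| := by
      rcases lt_or_gt_of_ne hFne with hf | hf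
      · have hg : 0 < det2 E G := by nlinarith
        rw [abs_of_neg hf, abs_of_pos hg, abs_of_neg (by linarith)]; ring
      · have hg : det2 E G < 0 := by nlinarith
        rw [abs_of_pos hf, abs_of_neg hg, abs_of_pos (by linarith)]; ring
    rw [← measure_inter_add_sdiff U hHm, habs, add_div,
      ENNReal.ofReal_add (by positivity) (by positivity)]
    exact add_le_add ((volume_triIm_ge P0 E F).trans (measure_mono s1))
      ((volume_triIm_ge P0 E G).trans (measure_mono s2))

end Vale.Agent.Lib.P243.Fan12
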