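import Mathlib
import Vale.Agent.Lib.P243.Fan.Planar2
import Vale.Agent.Lib.P243.Fan.AbsChart

/-!
P243 Fan: every orthogonal projection of the regular tetrahedron with vertices
`(1,1,1), (1,-1,-1), (-1,1,-1), (-1,-1,1)` has area at least `2 √2`.
-/

open MeasureTheory Measure Set Module
open scoped ENNReal RealInnerProductSpace

namespace Vale.Agent.Lib.P243.Fan12

open Vale.Agent.Lib.P243 Vale.Agent.Lib.P243.Counter Vale.Agent.Lib.P243.Fan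

lemma inner3 (x y : E3) : ⟪x, y⟫ = x 0 * y 0 + x 1 * y 1 + x 2 * y 2 := by
  simp only [PiLp.inner_apply, Fin.sum_univ_three, RCLike.inner_apply, conj_trivial]
  ring

lemma normsq3 (x : E3) : ‖x‖ ^ 2 = x 0 ^ 2 + x 1 ^ 2 + x 2 ^ 2 := by
  rw [← real_inner_self_eq_norm_sq, inner3]; ring

/-- the triple product `(e₁ × e₂) · v` -/
def det3 (e₁ e₂ v : E3) : ℝ :=
  (e₁ 1 * e₂ 2 - e₁ 2 * e₂ 1) * v 0 + (e₁ 2 * e₂ 0 - e₁ 0 * e₂ 2) * v 1
    + (e₁ 0 * e₂ 1 - e₁ 1 * e₂ 0) * v 2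

/-- A convex set containing `P0, P0+E, P0+F, P0+G` has, in every direction `v`, a shadow of area
at least `|(E × (F - G)) · v| / 2`. -/
theorem shadow_ge {K : Set E3} (hK : Convex ℝ K) {v : E3} (hv : ‖v‖ = 1) {P0 E F G : E3}
    (h0 : P0 ∈ K) (h1 : P0 + E ∈ K) (h2 : P0 + F ∈ K) (h3 : P0 + G ∈ K) {r : ℝ}
    (hr : (2 * r) ^ 2 ≤ (det3 E (F - G) v) ^ 2) :
    ENNReal.ofReal r ≤ area (shadow v K) := by
  obtain ⟨n, -, hn, -, -, hvn, -⟩ := exists_pair hv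
  obtain ⟨ν, hν, hνn, hνv, hexp⟩ := exists_frame hn hv hvn
  have hnv : ⟪n, v⟫ = 0 := by rw [real_inner_comm]; exact hvn
  have hnν : ⟪n, ν⟫ = 0 := by rw [real_inner_comm]; exact hνn
  have hG : 0 < ‖n‖ ^ 2 * ‖ν‖ ^ 2 - ⟪n, ν⟫ ^ 2 := by rw [hn, hν, hnν]; norm_num
  obtain ⟨-, -, hsh⟩ := abs_chart hv hnv hνv hG
  have hone : ‖n‖ ^ 2 * ‖ν‖ ^ 2 - ⟪n, ν⟫ ^ 2 = 1 := by rw [hn, hν, hnν]; norm_num
  rw [hsh K, hone, Real.sqrt_one, ENNReal.ofReal_one, div_one]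
  have hpars : ∀ x y : E3, ⟪x, y⟫ = ⟪n, x⟫ * ⟪n, y⟫ + ⟪ν, x⟫ * ⟪ν, y⟫ + ⟪x, v⟫ * ⟪y, v⟫ := by
    intro x y
    conv_lhs => rw [hexp y]
    rw [inner_add_right, inner_add_right, inner_smul_right, inner_smul_right, inner_smul_right,
      real_inner_comm n x, real_inner_comm n y, real_inner_comm ν x, real_inner_comm ν y]
    ring
  have hU : Convex ℝ (P n ν '' K) := hK.linear_image (P n ν).toLinearMap
  have q := quad_area hU (P0 := P n ν P0) (E := P n ν E) (F := P n ν F) (G := P n ν G)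
    ⟨P0, h0, rfl⟩ ⟨P0 + E, h1, map_add _ _ _⟩ ⟨P0 + F, h2, map_add _ _ _⟩
    ⟨P0 + G, h3, map_add _ _ _⟩
  refine (ENNReal.ofReal_le_ofReal ?_).trans q
  set W : E3 := F - G with hW
  set δ : ℝ := det2 (P n ν E) (P n ν F) - det2 (P n ν E) (P n ν G) with hδ
  have hδ' : δ = ⟪n, E⟫ * ⟪ν, W⟫ - ⟪ν, E⟫ * ⟪n, W⟫ := by
    rw [hδ, hW, inner_sub_right, inner_sub_right]
    simp only [det2, P_apply]
    ring
  have hv2 : v 0 ^ 2 + v 1 ^ 2 + v 2 ^ 2 = 1 := by rw [← normsq3, hv]; norm_num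
  have hgram : δ ^ 2 = (det3 E W v) ^ 2 := by
    have e1 := hpars E E
    have e2 := hpars W W
    have e3 := hpars E W
    have lag : δ ^ 2 = (⟪E, E⟫ - ⟪E, v⟫ * ⟪E, v⟫) * (⟪W, W⟫ - ⟪W, v⟫ * ⟪W, v⟫)
        - (⟪E, W⟫ - ⟪E, v⟫ * ⟪W, v⟫) ^ 2 := by
      rw [e1, e2, e3, hδ']; ring
    rw [lag, inner3 E E, inner3 W W, inner3 E W, inner3 E v, inner3 W v]
    unfold det3
    linear_combination (-((E 1 * W 2 - E 2 * W 1) ^ 2 + (E 2 * W 0 - E 0 * W 2) ^ 2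
      + (E 0 * W 1 - E 1 * W 0) ^ 2)) * hv2
  rw [← hgram] at hr
  have h4 : |2 * r| ≤ |δ| := sq_le_sq.1 hr
  have h5 := le_abs_self (2 * r)
  linarith

/-- the four vertices of the regular tetrahedron -/
noncomputable def V1 : E3 := !₂[1, 1, 1]
noncomputable def V2 : E3 := !₂[1, -1, -1]
noncomputable def V3 : E3 := !₂[-1, 1, -1]
noncomputable def V4 : E3 := !₂[-1, -1, 1]

/-- the numerical core: `max (4 |v|_∞, 2 |v|_1) ≥ 2 √2` on the unit sphere, in squared form -/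
lemma sphere_cases {x y z : ℝ} (h : x ^ 2 + y ^ 2 + z ^ 2 = 1) :
    32 ≤ (8 * x) ^ 2 ∨ 32 ≤ (8 * y) ^ 2 ∨ 32 ≤ (8 * z) ^ 2 ∨ 32 ≤ (4 * (x + y + z)) ^ 2 ∨
      32 ≤ (4 * (x + y - z)) ^ 2 ∨ 32 ≤ (4 * (x - y + z)) ^ 2 ∨ 32 ≤ (4 * (-x + y + z)) ^ 2 := by
  by_contra hcon
  simp only [not_or, not_le] at hcon
  obtain ⟨hx, hy, hz, h1, h2, h3, h4⟩ := hcon
  -- M = 1/√2
  obtain ⟨M, hM0, hM⟩ : ∃ M : ℝ, 0 < M ∧ M ^ 2 = 1 / 2 :=
    ⟨Real.sqrt (1 / 2), Real.sqrt_pos.2 (by norm_num), Real.sq_sqrt (by norm_num)⟩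
  have bx : |x| < M := abs_lt_of_sq_lt_sq (by nlinarith) hM0.le
  have by' : |y| < M := abs_lt_of_sq_lt_sq (by nlinarith) hM0.le
  have bz : |z| < M := abs_lt_of_sq_lt_sq (by nlinarith) hM0.le
  have s1 : 1 ≤ M * (|x| + |y| + |z|) := by
    have ex : |x| * |x| = x ^ 2 := by rw [abs_mul_abs_self]; ring
    have ey : |y| * |y| = y ^ 2 := by rw [abs_mul_abs_self]; ring
    have ez : |z| * |z| = z ^ 2 := by rw [abs_mul_abs_self]; ring
    nlinarith [mul_nonneg (abs_nonneg x) (sub_nonneg.2 bx.le),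
      mul_nonneg (abs_nonneg y) (sub_nonneg.2 by'.le), mul_nonneg (abs_nonneg z) (sub_nonneg.2 bz.le)]
  have s2 : 2 ≤ (|x| + |y| + |z|) ^ 2 := by
    have hpos : 0 ≤ |x| + |y| + |z| := by positivity
    nlinarith
  rcases abs_cases x with ⟨ex, _⟩ | ⟨ex, _⟩ <;> rcases abs_cases y with ⟨ey, _⟩ | ⟨ey, _⟩ <;>
    rcases abs_cases z with ⟨ez, _⟩ | ⟨ez, _⟩ <;> rw [ex, ey, ez] at s2 <;> nlinarith

/-- Every shadow of a convex set containing the four vertices has area at least `2 √2`. -/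
theorem shadow_T_ge {K : Set E3} (hK : Convex ℝ K) (h1 : V1 ∈ K) (h2 : V2 ∈ K) (h3 : V3 ∈ K)
    (h4 : V4 ∈ K) {v : E3} (hv : ‖v‖ = 1) :
    ENNReal.ofReal (2 * √2) ≤ area (shadow v K) := by
  have hv2 : v 0 ^ 2 + v 1 ^ 2 + v 2 ^ 2 = 1 := by rw [← normsq3, hv]; norm_num
  have hr : (2 * (2 * √2)) ^ 2 = 32 := by
    have : √2 ^ 2 = 2 := Real.sq_sqrt (by norm_num)
    nlinarith
  have a12 : V1 + (V2 - V1) ∈ K := by rw [add_sub_cancel]; exact h2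
  have a13 : V1 + (V3 - V1) ∈ K := by rw [add_sub_cancel]; exact h3
  have a14 : V1 + (V4 - V1) ∈ K := by rw [add_sub_cancel]; exact h4
  have a10 : V1 + 0 ∈ K := by rw [add_zero]; exact h1
  have a23 : V2 + (V3 - V2) ∈ K := by rw [add_sub_cancel]; exact h3
  have a24 : V2 + (V4 - V2) ∈ K := by rw [add_sub_cancel]; exact h4
  have a20 : V2 + 0 ∈ K := by rw [add_zero]; exact h2
  rcases sphere_cases hv2 with c | c | c | c | c | c | c
  · refine shadow_ge hK hv h1 a12 a13 a14 ?_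
    rw [hr]; refine c.trans (le_of_eq ?_)
    simp [det3, V1, V2, V3, V4]; ring
  · refine shadow_ge hK hv h1 a13 a12 a14 ?_
    rw [hr]; refine c.trans (le_of_eq ?_)
    simp [det3, V1, V2, V3, V4]; ring
  · refine shadow_ge hK hv h1 a14 a12 a13 ?_
    rw [hr]; refine c.trans (le_of_eq ?_)
    simp [det3, V1, V2, V3, V4]; ring
  · refine shadow_ge hK hv h2 a23 a24 a20 ?_
    rw [hr]; refine c.trans (le_of_eq ?_)
    simp [det3, V1, V2, V3, V4]; ring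
  · refine shadow_ge hK hv h1 a12 a13 a10 ?_
    rw [hr]; refine c.trans (le_of_eq ?_)
    simp [det3, V1, V2, V3, V4]; ring
  · refine shadow_ge hK hv h1 a12 a14 a10 ?_
    rw [hr]; refine c.trans (le_of_eq ?_)
    simp [det3, V1, V2, V3, V4]; ring
  · refine shadow_ge hK hv h1 a13 a14 a10 ?_
    rw [hr]; refine c.trans (le_of_eq ?_)
    simp [det3, V1, V2, V3, V4]; ring

/-- The smallest shadow of a convex set containing the four vertices has area at least `2 √2`. -/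
theorem minShadow_ge {K : Set E3} (hK : Convex ℝ K) (h1 : V1 ∈ K) (h2 : V2 ∈ K) (h3 : V3 ∈ K)
    (h4 : V4 ∈ K) : ENNReal.ofReal (2 * √2) ≤ minShadowArea K :=
  le_iInf₂ fun _ hv => shadow_T_ge hK h1 h2 h3 h4 hv

/-- The regular tetrahedron in orthonormal coordinates. -/
def T : Set E3 := {y | |y 1 + y 2| ≤ 1 + y 0 ∧ |y 1 - y 2| ≤ 1 - y 0}

lemma convex_T : Convex ℝ T := by
  have e : T = {y : E3 | y 1 + y 2 ≤ 1 + y 0} ∩ {y : E3 | -(1 + y 0) ≤ y 1 + y 2} ∩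
      ({y : E3 | y 1 - y 2 ≤ 1 - y 0} ∩ {y : E3 | -(1 - y 0) ≤ y 1 - y 2}) := by
    ext y
    simp only [T, mem_setOf_eq, abs_le, mem_inter_iff]
    tauto
  rw [e]
  refine Convex.inter (Convex.inter ?_ ?_) (Convex.inter ?_ ?_)
  all_goals
    intro a ha b hb s t hs ht hst
    simp only [mem_setOf_eq, PiLp.add_apply, PiLp.smul_apply, smul_eq_mul] at ha hb ⊢
    nlinarith

theorem minShadow_T_ge : ENNReal.ofReal (2 * √2) ≤ minShadowArea T := by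
  apply minShadow_ge convex_T
  all_goals
    simp only [T, V1, V2, V3, V4, mem_setOf_eq]
    constructor <;> simp <;> norm_num

end Vale.Agent.Lib.P243.Fan12
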