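import Mathlib

/-!
# P243, fan construction: the abstract covering lemma (pure real arithmetic)

Coordinates `(x, p, q)`; the tetrahedron is `|p| ≤ (1 + x) / 2`, `|q| ≤ (1 - x) / 2`.
The `j`-th upper oblique cylinder has axis `(ξ j, 1, η j)` and is cut out, in the oblique
coordinates `s = 1 - x + p ξ_j`, `q₀ = q - p η_j`, by `0 ≤ s ≤ a_j`, `θ_j s ≤ q₀ ≤ θ_{j+1} s`.
The lower cylinders are the images under `(x, p, q) ↦ (-x, q, -p)`.
-/

namespace Vale.Agent.Lib.P243.Fan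

/-- Membership of `(x, p, q)` in the `j`-th upper oblique cylinder. -/
def Up (θ ξ η a : ℕ → ℝ) (j : ℕ) (x p q : ℝ) : Prop :=
  0 ≤ 1 - x + p * ξ j ∧ 1 - x + p * ξ j ≤ a j ∧
    θ j * (1 - x + p * ξ j) ≤ q - p * η j ∧ q - p * η j ≤ θ (j + 1) * (1 - x + p * ξ j)

/-- Discrete intermediate value theorem. -/
theorem exists_sign_change (m : ℕ) (G : ℕ → ℝ) (hpos : 0 < m) (h0 : 0 ≤ G 0) (hm : G m ≤ 0) :
    ∃ j < m, 0 ≤ G j ∧ G (j + 1) ≤ 0 := by
  induction m with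
  | zero => omega
  | succ n ih =>
    by_cases h : G n ≤ 0
    · rcases Nat.eq_zero_or_pos n with rfl | hn
      · exact ⟨0, by omega, h0, hm⟩
      · obtain ⟨j, hj, h1, h2⟩ := ih hn h
        exact ⟨j, by omega, h1, h2⟩
    · exact ⟨n, by omega, (not_le.1 h).le, hm⟩

/-- The wedges tile: every point with `|q| ≤ (1 - x) / 2` lies in some wedge. -/
theorem exists_wedge (m : ℕ) (hpos : 0 < m) (θ ξ η : ℕ → ℝ)
    (hθ0 : θ 0 = -1 / 2) (hθm : θ m = 1 / 2) (hmono : ∀ j < m, θ j < θ (j + 1))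
    (hglue : ∀ j, j + 1 < m → η (j + 1) + θ (j + 1) * ξ (j + 1) = η j + θ (j + 1) * ξ j)
    (h0 : η 0 + θ 0 * ξ 0 = 0) (hm : η (m - 1) + θ m * ξ (m - 1) = 0)
    (x p q : ℝ) (hq : |q| ≤ (1 - x) / 2) :
    ∃ j < m, 0 ≤ 1 - x + p * ξ j ∧
      θ j * (1 - x + p * ξ j) ≤ q - p * η j ∧ q - p * η j ≤ θ (j + 1) * (1 - x + p * ξ j) := by
  rw [abs_le] at hq
  set L : ℕ → ℝ := fun i => q - p * η i - θ i * (1 - x + p * ξ i) with hL
  set R : ℕ → ℝ := fun i => q - p * η i - θ (i + 1) * (1 - x + p * ξ i) with hR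
  set G : ℕ → ℝ := fun i => if i < m then L i else R (m - 1) with hG
  have hGs : ∀ j < m, G (j + 1) = R j := by
    intro j hj
    by_cases h : j + 1 < m
    · have : G (j + 1) = L (j + 1) := by simp only [hG, if_pos h]
      rw [this]
      have hg := hglue j h
      simp only [hL, hR]
      linear_combination (-p) * hg
    · have hjm : j = m - 1 := by omega
      have : G (j + 1) = R (m - 1) := by simp only [hG, if_neg h]
      rw [this, hjm]
  have hG0 : 0 ≤ G 0 := by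
    have : G 0 = L 0 := by simp only [hG, if_pos hpos]
    rw [this]
    simp only [hL]
    have e : q - p * η 0 - θ 0 * (1 - x + p * ξ 0) = q + (1 - x) / 2 := by
      have h0' := h0
      rw [hθ0] at h0' ⊢
      linear_combination (-p) * h0'
    rw [e]
    linarith [hq.1]
  have hGm : G m ≤ 0 := by
    have : G m = R (m - 1) := by simp only [hG, if_neg (lt_irrefl m)]
    rw [this]
    simp only [hR]
    have e1 : m - 1 + 1 = m := by omega
    rw [e1]
    have e : q - p * η (m - 1) - θ m * (1 - x + p * ξ (m - 1)) = q - (1 - x) / 2 := by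
      have hm' := hm
      rw [hθm] at hm' ⊢
      linear_combination (-p) * hm'
    rw [e]
    linarith [hq.2]
  obtain ⟨j, hj, h1, h2⟩ := exists_sign_change m G hpos hG0 hGm
  rw [hGs j hj] at h2
  have h1' : G j = L j := by simp only [hG, if_pos hj]
  rw [h1'] at h1
  simp only [hL] at h1
  simp only [hR] at h2
  refine ⟨j, hj, ?_, by linarith, by linarith⟩
  have hlt := hmono j hj
  by_contra hneg
  rw [not_le] at hneg
  nlinarith [mul_pos_of_neg_of_neg (sub_neg.2 hlt) hneg]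

/-- **Abstract covering lemma** for the fan construction. -/
theorem fan_cover (m : ℕ) (hpos : 0 < m) (θ ξ η a : ℕ → ℝ)
    (hθ0 : θ 0 = -1 / 2) (hθm : θ m = 1 / 2) (hmono : ∀ j < m, θ j < θ (j + 1))
    (hglue : ∀ j, j + 1 < m → η (j + 1) + θ (j + 1) * ξ (j + 1) = η j + θ (j + 1) * ξ j)
    (h0 : η 0 + θ 0 * ξ 0 = 0) (hm : η (m - 1) + θ m * ξ (m - 1) = 0)
    (hpair : ∀ j < m, ∀ l < m, ∀ τ τ' : ℝ, (τ = θ j ∨ τ = θ (j + 1)) →
      (τ' = θ l ∨ τ' = θ (l + 1)) →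
      0 < (1 + η j * η l) + (ξ l + ξ j * η l) * τ ∧
      0 < (1 + η j * η l) - (ξ j - ξ l * η j) * τ' ∧
      2 * (1 + η j * η l) ≤ ((1 + η j * η l) + (ξ l + ξ j * η l) * τ) * a j
        + ((1 + η j * η l) - (ξ j - ξ l * η j) * τ') * a l)
    (x p q : ℝ) (hp : |p| ≤ (1 + x) / 2) (hq : |q| ≤ (1 - x) / 2) :
    (∃ j < m, Up θ ξ η a j x p q) ∨ (∃ l < m, Up θ ξ η a l (-x) (-q) p) := by
  obtain ⟨j, hj, hs, hlo, hhi⟩ := exists_wedge m hpos θ ξ η hθ0 hθm hmono hglue h0 hm x p q hq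
  obtain ⟨l, hl, hs', hlo', hhi'⟩ := exists_wedge m hpos θ ξ η hθ0 hθm hmono hglue h0 hm
    (-x) (-q) p (by rw [sub_neg_eq_add]; exact hp)
  by_cases hA : 1 - x + p * ξ j ≤ a j
  · exact Or.inl ⟨j, hj, hs, hA, hlo, hhi⟩
  by_cases hB : 1 - -x + -q * ξ l ≤ a l
  · exact Or.inr ⟨l, hl, hs', hB, hlo', hhi'⟩
  exfalso
  rw [not_le] at hA hB
  set s := 1 - x + p * ξ j with hsdef
  set s' := 1 - -x + -q * ξ l with hsdef'
  set q0 := q - p * η j with hq0
  set q0' := p - -q * η l with hq0'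
  set D := 1 + η j * η l with hD
  set lam := ξ l + ξ j * η l with hlam
  set mu := ξ j - ξ l * η j with hmu
  have hid : D * s + D * s' + lam * q0 - mu * q0' = 2 * D := by
    simp only [hsdef, hsdef', hq0, hq0', hD, hlam, hmu]
    ring
  -- choose the corners
  obtain ⟨τ, hτ, h1⟩ : ∃ τ, (τ = θ j ∨ τ = θ (j + 1)) ∧ lam * τ * s ≤ lam * q0 := by
    rcases le_total 0 lam with h | h
    · exact ⟨θ j, Or.inl rfl, by
        rw [mul_assoc]; exact mul_le_mul_of_nonneg_left hlo h⟩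
    · exact ⟨θ (j + 1), Or.inr rfl, by
        rw [mul_assoc]; exact mul_le_mul_of_nonpos_left hhi h⟩
  obtain ⟨τ', hτ', h2⟩ : ∃ τ', (τ' = θ l ∨ τ' = θ (l + 1)) ∧ mu * q0' ≤ mu * τ' * s' := by
    rcases le_total 0 mu with h | h
    · exact ⟨θ (l + 1), Or.inr rfl, by
        rw [mul_assoc]; exact mul_le_mul_of_nonneg_left hhi' h⟩
    · exact ⟨θ l, Or.inl rfl, by
        rw [mul_assoc]; exact mul_le_mul_of_nonpos_left hlo' h⟩
  obtain ⟨c1, c2, h3⟩ := hpair j hj l hl τ τ' hτ hτ'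
  have h4 : (D + lam * τ) * a j < (D + lam * τ) * s := mul_lt_mul_of_pos_left hA c1
  have h5 : (D - mu * τ') * a l < (D - mu * τ') * s' := mul_lt_mul_of_pos_left hB c2
  nlinarith

end Vale.Agent.Lib.P243.Fan
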