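import Mathlib
import Vale.Agent.Lib.P243.Defs
import Vale.Agent.Lib.P243.Fan.AbsArea

/-!
# P243, fan counterexample: the regular tetrahedron and its smallest shadow
-/

open Set MeasureTheory Measure Module
open scoped RealInnerProductSpace ENNReal

namespace Vale.Agent.Lib.P243.Fan

open Vale.Agent.Lib.P243

/-- The regular tetrahedron with vertices `(1,1,1), (1,-1,-1), (-1,1,-1), (-1,-1,1)`. -/
def T : Set E3 := {y | |y 1 + y 2| ≤ 1 + y 0 ∧ |y 1 - y 2| ≤ 1 - y 0}

theorem isConvexBody_T : IsConvexBody T := by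
  have hc : ∀ i : Fin 3, Continuous fun p : E3 => p i := fun i => by fun_prop
  refine ⟨?_, ?_, ?_⟩
  · intro p hp q hq a b ha hb hab
    obtain ⟨hp1, hp2⟩ := hp
    obtain ⟨hq1, hq2⟩ := hq
    rw [abs_le] at hp1 hp2 hq1 hq2
    have e : ∀ i : Fin 3, (a • p + b • q) i = a * p i + b * q i := fun i => by simp
    refine ⟨?_, ?_⟩
    · rw [e, e, e, abs_le]
      constructor <;> nlinarith [mul_le_mul_of_nonneg_left hp1.1 ha,
        mul_le_mul_of_nonneg_left hp1.2 ha, mul_le_mul_of_nonneg_left hq1.1 hb,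
        mul_le_mul_of_nonneg_left hq1.2 hb]
    · rw [e, e, e, abs_le]
      constructor <;> nlinarith [mul_le_mul_of_nonneg_left hp2.1 ha,
        mul_le_mul_of_nonneg_left hp2.2 ha, mul_le_mul_of_nonneg_left hq2.1 hb,
        mul_le_mul_of_nonneg_left hq2.2 hb]
  · have hclosed : IsClosed T := by
      have h1 : IsClosed {p : E3 | |p 1 + p 2| ≤ 1 + p 0} :=
        isClosed_le (((hc 1).add (hc 2)).abs) (continuous_const.add (hc 0))
      have h2 : IsClosed {p : E3 | |p 1 - p 2| ≤ 1 - p 0} :=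
        isClosed_le (((hc 1).sub (hc 2)).abs) (continuous_const.sub (hc 0))
      exact h1.inter h2
    refine (isCompact_closedBall (0 : E3) 3).of_isClosed_subset hclosed ?_
    rintro p ⟨h1, h2⟩
    rw [abs_le] at h1 h2
    rw [mem_closedBall_zero_iff, EuclideanSpace.norm_eq, Real.sqrt_le_left (by norm_num)]
    simp only [Fin.sum_univ_three, Real.norm_eq_abs, sq_abs]
    nlinarith [h1.1, h1.2, h2.1, h2.2]
  · have hopen : IsOpen {p : E3 | |p 1 + p 2| < 1 + p 0 ∧ |p 1 - p 2| < 1 - p 0} := by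
      have h1 : IsOpen {p : E3 | |p 1 + p 2| < 1 + p 0} :=
        isOpen_lt (((hc 1).add (hc 2)).abs) (continuous_const.add (hc 0))
      have h2 : IsOpen {p : E3 | |p 1 - p 2| < 1 - p 0} :=
        isOpen_lt (((hc 1).sub (hc 2)).abs) (continuous_const.sub (hc 0))
      exact h1.inter h2
    refine ⟨0, interior_maximal ?_ hopen ?_⟩
    · rintro p ⟨h1, h2⟩
      exact ⟨h1.le, h2.le⟩
    · constructor <;> simp

/-- The determinant of three vectors of three-space. -/
def det3 (p q v : E3) : ℝ :=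
  p 0 * (q 1 * v 2 - q 2 * v 1) - p 1 * (q 0 * v 2 - q 2 * v 0) + p 2 * (q 0 * v 1 - q 1 * v 0)

/-- The half-open standard triangle. -/
def Dl : Set (ℝ × ℝ) := {z | 0 ≤ z.1 ∧ 0 < z.2 ∧ z.1 + z.2 ≤ 1}

lemma le_volume_Dl : ENNReal.ofReal (1 / 2) ≤ volume Dl := by
  have hsub : regionBetween (fun _ : ℝ => (0 : ℝ)) (fun p : ℝ => 1 - p) (Ioc (0 : ℝ) 1) ⊆ Dl := by
    rintro ⟨a, b⟩ ⟨h1, h2⟩
    simp only [mem_Ioc, mem_Ioo] at h1 h2
    exact ⟨h1.1.le, h2.1, by show a + b ≤ 1; linarith [h2.2]⟩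
  refine le_trans (le_of_eq ?_) (measure_mono hsub)
  have hf : IntegrableOn (fun _ : ℝ => (0 : ℝ)) (Ioc (0 : ℝ) 1) volume :=
    (Continuous.integrableOn_Icc (by fun_prop)).mono_set Ioc_subset_Icc_self
  have hg : IntegrableOn (fun p : ℝ => 1 - p) (Ioc (0 : ℝ) 1) volume :=
    (Continuous.integrableOn_Icc (by fun_prop)).mono_set Ioc_subset_Icc_self
  rw [Measure.volume_eq_prod, volume_regionBetween_eq_integral hf hg measurableSet_Ioc]
  · congr 1
    rw [← intervalIntegral.integral_of_le (by norm_num)]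
    have : ∀ p : ℝ, ((fun p : ℝ => 1 - p) - fun _ : ℝ => (0 : ℝ)) p = 1 - p := by
      intro p
      simp only [Pi.sub_apply]
      ring
    simp_rw [this]
    rw [intervalIntegral.integral_sub (Continuous.intervalIntegrable (by fun_prop) _ _)
      (Continuous.intervalIntegrable (by fun_prop) _ _), integral_id]
    simp
    norm_num
  · intro p hp
    simp only [mem_Ioc] at hp
    linarith [hp.2]

/-- The orthogonal projection onto the plane orthogonal to a unit vector. -/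
lemma proj_eq {v : E3} (hv : ‖v‖ = 1) (y : E3) :
    (ℝ ∙ v)ᗮ.starProjection y = y - ⟪v, y⟫ • v := by
  have h1 := Submodule.starProjection_add_starProjection_orthogonal (K := (ℝ ∙ v)) y
  rw [Submodule.starProjection_unit_singleton ℝ hv] at h1
  rw [eq_sub_iff_add_eq, add_comm]
  exact h1

lemma inner3 (x y : E3) : ⟪x, y⟫ = x 0 * y 0 + x 1 * y 1 + x 2 * y 2 := by
  rw [PiLp.inner_apply, Fin.sum_univ_three]
  simp [mul_comm]

lemma normsq3 (x : E3) : ‖x‖ ^ 2 = x 0 ^ 2 + x 1 ^ 2 + x 2 ^ 2 := by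
  rw [← real_inner_self_eq_norm_sq, inner3]
  ring

/-- Gram determinant of the projections of two vectors. -/
lemma gram_proj {v : E3} (hv : ‖v‖ = 1) (p q : E3) :
    ‖p - ⟪v, p⟫ • v‖ ^ 2 * ‖q - ⟪v, q⟫ • v‖ ^ 2 - ⟪p - ⟪v, p⟫ • v, q - ⟪v, q⟫ • v⟫ ^ 2
      = det3 p q v ^ 2 := by
  have hv2 : v 0 ^ 2 + v 1 ^ 2 + v 2 ^ 2 = 1 := by rw [← normsq3, hv]; norm_num
  have ha : ⟪v, p⟫ = v 0 * p 0 + v 1 * p 1 + v 2 * p 2 := inner3 v p
  have hb : ⟪v, q⟫ = v 0 * q 0 + v 1 * q 1 + v 2 * q 2 := inner3 v q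
  set a : ℝ := ⟪v, p⟫
  set b : ℝ := ⟪v, q⟫
  have h1 : ‖p - a • v‖ ^ 2 = p 0 ^ 2 + p 1 ^ 2 + p 2 ^ 2 - a ^ 2 := by
    rw [normsq3]
    simp only [PiLp.sub_apply, PiLp.smul_apply, smul_eq_mul]
    linear_combination (2 * a) * ha + a ^ 2 * hv2
  have h2 : ‖q - b • v‖ ^ 2 = q 0 ^ 2 + q 1 ^ 2 + q 2 ^ 2 - b ^ 2 := by
    rw [normsq3]
    simp only [PiLp.sub_apply, PiLp.smul_apply, smul_eq_mul]
    linear_combination (2 * b) * hb + b ^ 2 * hv2
  have h3 : ⟪p - a • v, q - b • v⟫ = p 0 * q 0 + p 1 * q 1 + p 2 * q 2 - a * b := by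
    rw [inner3]
    simp only [PiLp.sub_apply, PiLp.smul_apply, smul_eq_mul]
    linear_combination b * ha + a * hb + a * b * hv2
  rw [h1, h2, h3, ha, hb]
  simp only [det3]
  linear_combination
    (-((p 0 ^ 2 + p 1 ^ 2 + p 2 ^ 2) * (q 0 ^ 2 + q 1 ^ 2 + q 2 ^ 2)
      - (p 0 * q 0 + p 1 * q 1 + p 2 * q 2) ^ 2)) * hv2

/-- The projected (half-open) triangle with vertex `A` and edge vectors `p`, `q`. -/
def ptri (v A p q : E3) : Set E3 :=
  (fun z : ℝ × ℝ => (A - ⟪v, A⟫ • v) + (z.1 • (p - ⟪v, p⟫ • v) + z.2 • (q - ⟪v, q⟫ • v))) '' Dl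

lemma ptri_subset_shadow {K : Set E3} (hK : Convex ℝ K) {A B C v : E3} (hA : A ∈ K) (hB : B ∈ K)
    (hC : C ∈ K) (hv : ‖v‖ = 1) : ptri v A (B - A) (C - A) ⊆ shadow v K := by
  rintro _ ⟨z, ⟨hz1, hz2, hz3⟩, rfl⟩
  have hs : 0 < z.1 + z.2 := by linarith
  have hM : B + (z.2 / (z.1 + z.2)) • (C - B) ∈ K :=
    hK.add_smul_sub_mem hB hC ⟨by positivity, by rw [div_le_one hs]; linarith⟩
  have hy : A + (z.1 + z.2) • (B + (z.2 / (z.1 + z.2)) • (C - B) - A) ∈ K :=
    hK.add_smul_sub_mem hA hM ⟨hs.le, hz3⟩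
  have hy' : A + (z.1 + z.2) • (B + (z.2 / (z.1 + z.2)) • (C - B) - A)
      = A + (z.1 • (B - A) + z.2 • (C - A)) := by
    have : (z.1 + z.2) • ((z.2 / (z.1 + z.2)) • (C - B)) = z.2 • (C - B) := by
      rw [smul_smul, mul_div_cancel₀ _ hs.ne']
    have e : B + (z.2 / (z.1 + z.2)) • (C - B) - A = (B - A) + (z.2 / (z.1 + z.2)) • (C - B) := by
      abel
    rw [e, smul_add, this]
    module
  rw [hy'] at hy
  refine ⟨_, hy, ?_⟩
  rw [proj_eq hv]
  simp only [inner_add_right, inner_smul_right]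
  module

lemma area_ptri {v : E3} (hv : ‖v‖ = 1) (A p q : E3) :
    ENNReal.ofReal (|det3 p q v| / 2) ≤ area (ptri v A p q) := by
  rcases eq_or_ne (det3 p q v) 0 with h0 | h0
  · simp [h0]
  · have hG := gram_proj hv p q
    have hpos : 0 < ‖p - ⟪v, p⟫ • v‖ ^ 2 * ‖q - ⟪v, q⟫ • v‖ ^ 2
        - ⟪p - ⟪v, p⟫ • v, q - ⟪v, q⟫ • v⟫ ^ 2 := by
      rw [hG]; positivity
    unfold ptri
    rw [area_image_aff _ _ _ hpos, hG, Real.sqrt_sq_eq_abs]
    calc ENNReal.ofReal (|det3 p q v| / 2)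
        = ENNReal.ofReal |det3 p q v| * ENNReal.ofReal (1 / 2) := by
          rw [← ENNReal.ofReal_mul (abs_nonneg _)]; congr 1; ring
      _ ≤ ENNReal.ofReal |det3 p q v| * volume Dl := by gcongr; exact le_volume_Dl

/-- One triangle inside a convex set bounds the area of its shadow from below. -/
theorem shadow_ge_one {K : Set E3} (hK : Convex ℝ K) {A B C v : E3} (hA : A ∈ K) (hB : B ∈ K)
    (hC : C ∈ K) (hv : ‖v‖ = 1) :
    ENNReal.ofReal (|det3 (B - A) (C - A) v| / 2) ≤ area (shadow v K) :=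
  (area_ptri hv A _ _).trans (measure_mono (ptri_subset_shadow hK hA hB hC hv))

/-- The cross product of `p` and `v`. -/
noncomputable def crs (p v : E3) : E3 :=
  !₂[p 1 * v 2 - p 2 * v 1, p 2 * v 0 - p 0 * v 2, p 0 * v 1 - p 1 * v 0]

lemma inner_crs_ptri (v A p q : E3) (z : ℝ × ℝ) :
    ⟪crs p v, (A - ⟪v, A⟫ • v) + (z.1 • (p - ⟪v, p⟫ • v) + z.2 • (q - ⟪v, q⟫ • v))⟫
      = ⟪crs p v, A - ⟪v, A⟫ • v⟫ - z.2 * det3 p q v := by
  rw [inner3 (crs p v) (_ + _), inner3 (crs p v) (A - _)]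
  simp only [crs, det3, PiLp.add_apply, PiLp.sub_apply, PiLp.smul_apply, smul_eq_mul]
  simp
  ring

/-- Two triangles with a common edge whose third vertices project to opposite sides of that
edge. -/
theorem shadow_ge_two {K : Set E3} (hK : Convex ℝ K) {A B C D v : E3} (hA : A ∈ K) (hB : B ∈ K)
    (hC : C ∈ K) (hD : D ∈ K) (hv : ‖v‖ = 1)
    (hopp : det3 (B - A) (C - A) v * det3 (B - A) (D - A) v ≤ 0) :
    ENNReal.ofReal ((|det3 (B - A) (C - A) v| + |det3 (B - A) (D - A) v|) / 2)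
      ≤ area (shadow v K) := by
  set d1 := det3 (B - A) (C - A) v with hd1
  set d2 := det3 (B - A) (D - A) v with hd2
  have key : ∀ C' D' : E3, C' ∈ K → D' ∈ K → det3 (B - A) (C' - A) v < 0 →
      0 ≤ det3 (B - A) (D' - A) v →
      ENNReal.ofReal ((|det3 (B - A) (C' - A) v| + |det3 (B - A) (D' - A) v|) / 2)
        ≤ area (shadow v K) := by
    intro C' D' hC' hD' h1 h2
    set c0 : ℝ := ⟪crs (B - A) v, A - ⟪v, A⟫ • v⟫ with hc0
    let H : Set E3 := {y | c0 < ⟪crs (B - A) v, y⟫}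
    have hH : MeasurableSet H :=
      (isOpen_lt continuous_const (continuous_const.inner continuous_id)).measurableSet
    have s1 : ptri v A (B - A) (C' - A) ⊆ shadow v K ∩ H := by
      intro y hy
      refine ⟨ptri_subset_shadow hK hA hB hC' hv hy, ?_⟩
      obtain ⟨z, ⟨_, hz2, _⟩, rfl⟩ := hy
      show c0 < _
      rw [inner_crs_ptri]
      nlinarith
    have s2 : ptri v A (B - A) (D' - A) ⊆ shadow v K \ H := by
      intro y hy
      refine ⟨ptri_subset_shadow hK hA hB hD' hv hy, ?_⟩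
      obtain ⟨z, ⟨_, hz2, _⟩, rfl⟩ := hy
      show ¬ (c0 < _)
      rw [inner_crs_ptri, not_lt]
      nlinarith
    have hsplit : area (shadow v K ∩ H) + area (shadow v K \ H) = area (shadow v K) :=
      measure_inter_add_sdiff _ hH
    rw [← hsplit, add_div, ENNReal.ofReal_add (by positivity) (by positivity)]
    exact add_le_add ((area_ptri hv A _ _).trans (measure_mono s1))
      ((area_ptri hv A _ _).trans (measure_mono s2))
  rcases lt_or_ge d1 0 with h1 | h1
  · have h2 : 0 ≤ d2 := by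
      by_contra h
      push Not at h
      nlinarith
    exact key C D hC hD h1 h2
  · rcases lt_or_ge d2 0 with h2 | h2
    · have := key D C hD hC h2 h1
      rwa [add_comm] at this
    · -- both nonnegative with nonpositive product: one of them vanishes
      rcases eq_or_lt_of_le h1 with h | h
      · rw [← h, abs_zero, zero_add]
        exact shadow_ge_one hK hA hB hD hv
      · have : d2 = 0 := by nlinarith
        rw [this, abs_zero, add_zero]
        exact shadow_ge_one hK hA hB hC hv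

/-- The vertices of `T`. -/
noncomputable def va : E3 := !₂[1, 1, 1]
noncomputable def vb : E3 := !₂[1, -1, -1]
noncomputable def vc : E3 := !₂[-1, 1, -1]
noncomputable def vd : E3 := !₂[-1, -1, 1]

lemma va_mem : va ∈ T := by constructor <;> simp [va] <;> norm_num
lemma vb_mem : vb ∈ T := by constructor <;> simp [vb] <;> norm_num
lemma vc_mem : vc ∈ T := by constructor <;> simp [vc] <;> norm_num
lemma vd_mem : vd ∈ T := by constructor <;> simp [vd] <;> norm_num

lemma pair_bound {A B C D v : E3} (hA : A ∈ T) (hB : B ∈ T) (hC : C ∈ T) (hD : D ∈ T)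
    (hv : ‖v‖ = 1) {x y : ℝ} (e1 : det3 (B - A) (C - A) v = -4 * x)
    (e2 : det3 (B - A) (D - A) v = 4 * y) (hxy : 0 ≤ x * y) :
    ENNReal.ofReal (2 * (|x| + |y|)) ≤ area (shadow v T) := by
  have h := shadow_ge_two isConvexBody_T.1 hA hB hC hD hv (by rw [e1, e2]; nlinarith)
  rw [e1, e2, abs_mul, abs_mul] at h
  have e : (|(-4 : ℝ)| * |x| + |(4 : ℝ)| * |y|) / 2 = 2 * (|x| + |y|) := by
    rw [abs_neg, abs_of_pos (by norm_num : (0 : ℝ) < 4)]; ring
  rwa [e] at h

lemma single_bound {A B C v : E3} (hA : A ∈ T) (hB : B ∈ T) (hC : C ∈ T)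
    (hv : ‖v‖ = 1) {x : ℝ} (e1 : |det3 (B - A) (C - A) v| = 4 * |x|) :
    ENNReal.ofReal (2 * |x|) ≤ area (shadow v T) := by
  have h := shadow_ge_one isConvexBody_T.1 hA hB hC hv
  rw [e1] at h
  have e : 4 * |x| / 2 = 2 * |x| := by ring
  rwa [e] at h

/-- The real arithmetic behind the smallest shadow. -/
lemma arith_min {f1 f2 f3 f4 s : ℝ} (hs : 0 < s) (hs2 : s ^ 2 = 2) (hsum : f1 + f2 + f3 + f4 = 0)
    (hsq : f1 ^ 2 + f2 ^ 2 + f3 ^ 2 + f4 ^ 2 = 4)
    (h1 : |f1| < s) (h2 : |f2| < s) (h3 : |f3| < s) (h4 : |f4| < s)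
    (h12 : 0 ≤ f1 * f2 → |f1| + |f2| < s) (h13 : 0 ≤ f1 * f3 → |f1| + |f3| < s)
    (h14 : 0 ≤ f1 * f4 → |f1| + |f4| < s) (h23 : 0 ≤ f2 * f3 → |f2| + |f3| < s)
    (h24 : 0 ≤ f2 * f4 → |f2| + |f4| < s) (h34 : 0 ≤ f3 * f4 → |f3| + |f4| < s) : False := by
  -- a general principle: if `P` is the common value of the positive and negative mass
  have fin : ∀ P : ℝ, 0 ≤ P → P < s → f1 ^ 2 + f2 ^ 2 + f3 ^ 2 + f4 ^ 2 ≤ 2 * P ^ 2 → False := by
    intro P hP0 hPs hle
    nlinarith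
  rcases le_total 0 f1 with a1 | a1 <;> rcases le_total 0 f2 with a2 | a2 <;>
    rcases le_total 0 f3 with a3 | a3 <;> rcases le_total 0 f4 with a4 | a4
  · exact fin 0 le_rfl hs (by nlinarith [mul_nonneg a1 a2, mul_nonneg a1 a3, mul_nonneg a1 a4, mul_nonneg a2 a3, mul_nonneg a2 a4, mul_nonneg a3 a4, hsum, mul_self_nonneg (f1 + f2 + f3 + f4)])
  · have hp := h4
    rw [abs_of_nonpos a4] at hp
    have e : f1 + f2 + f3 = -f4 := by linarith
    exact fin (-f4) (by linarith) hp (by nlinarith [mul_nonneg a1 a2, mul_nonneg a1 a3, mul_nonneg a2 a3, congrArg (fun t => t ^ 2) e])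
  · have hp := h3
    rw [abs_of_nonpos a3] at hp
    have e : f1 + f2 + f4 = -f3 := by linarith
    exact fin (-f3) (by linarith) hp (by nlinarith [mul_nonneg a1 a2, mul_nonneg a1 a4, mul_nonneg a2 a4, congrArg (fun t => t ^ 2) e])
  · have hp := h12 (mul_nonneg a1 a2)
    rw [abs_of_nonneg a1, abs_of_nonneg a2] at hp
    have e : f3 + f4 = -(f1 + f2) := by linarith
    exact fin (f1 + f2) (by linarith) hp (by nlinarith [mul_nonneg a1 a2, mul_nonneg (neg_nonneg.2 a3) (neg_nonneg.2 a4), congrArg (fun t => t ^ 2) e])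
  · have hp := h2
    rw [abs_of_nonpos a2] at hp
    have e : f1 + f3 + f4 = -f2 := by linarith
    exact fin (-f2) (by linarith) hp (by nlinarith [mul_nonneg a1 a3, mul_nonneg a1 a4, mul_nonneg a3 a4, congrArg (fun t => t ^ 2) e])
  · have hp := h13 (mul_nonneg a1 a3)
    rw [abs_of_nonneg a1, abs_of_nonneg a3] at hp
    have e : f2 + f4 = -(f1 + f3) := by linarith
    exact fin (f1 + f3) (by linarith) hp (by nlinarith [mul_nonneg a1 a3, mul_nonneg (neg_nonneg.2 a2) (neg_nonneg.2 a4), congrArg (fun t => t ^ 2) e])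
  · have hp := h14 (mul_nonneg a1 a4)
    rw [abs_of_nonneg a1, abs_of_nonneg a4] at hp
    have e : f2 + f3 = -(f1 + f4) := by linarith
    exact fin (f1 + f4) (by linarith) hp (by nlinarith [mul_nonneg a1 a4, mul_nonneg (neg_nonneg.2 a2) (neg_nonneg.2 a3), congrArg (fun t => t ^ 2) e])
  · have hp := h1
    rw [abs_of_nonneg a1] at hp
    have e : f2 + f3 + f4 = -f1 := by linarith
    exact fin f1 a1 hp (by nlinarith [mul_nonneg (neg_nonneg.2 a2) (neg_nonneg.2 a3), mul_nonneg (neg_nonneg.2 a2) (neg_nonneg.2 a4), mul_nonneg (neg_nonneg.2 a3) (neg_nonneg.2 a4), congrArg (fun t => t ^ 2) e])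
  · have hp := h1
    rw [abs_of_nonpos a1] at hp
    have e : f2 + f3 + f4 = -f1 := by linarith
    exact fin (-f1) (by linarith) hp (by nlinarith [mul_nonneg a2 a3, mul_nonneg a2 a4, mul_nonneg a3 a4, congrArg (fun t => t ^ 2) e])
  · have hp := h23 (mul_nonneg a2 a3)
    rw [abs_of_nonneg a2, abs_of_nonneg a3] at hp
    have e : f1 + f4 = -(f2 + f3) := by linarith
    exact fin (f2 + f3) (by linarith) hp (by nlinarith [mul_nonneg a2 a3, mul_nonneg (neg_nonneg.2 a1) (neg_nonneg.2 a4), congrArg (fun t => t ^ 2) e])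
  · have hp := h24 (mul_nonneg a2 a4)
    rw [abs_of_nonneg a2, abs_of_nonneg a4] at hp
    have e : f1 + f3 = -(f2 + f4) := by linarith
    exact fin (f2 + f4) (by linarith) hp (by nlinarith [mul_nonneg a2 a4, mul_nonneg (neg_nonneg.2 a1) (neg_nonneg.2 a3), congrArg (fun t => t ^ 2) e])
  · have hp := h2
    rw [abs_of_nonneg a2] at hp
    have e : f1 + f3 + f4 = -f2 := by linarith
    exact fin f2 a2 hp (by nlinarith [mul_nonneg (neg_nonneg.2 a1) (neg_nonneg.2 a3), mul_nonneg (neg_nonneg.2 a1) (neg_nonneg.2 a4), mul_nonneg (neg_nonneg.2 a3) (neg_nonneg.2 a4), congrArg (fun t => t ^ 2) e])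
  · have hp := h34 (mul_nonneg a3 a4)
    rw [abs_of_nonneg a3, abs_of_nonneg a4] at hp
    have e : f1 + f2 = -(f3 + f4) := by linarith
    exact fin (f3 + f4) (by linarith) hp (by nlinarith [mul_nonneg a3 a4, mul_nonneg (neg_nonneg.2 a1) (neg_nonneg.2 a2), congrArg (fun t => t ^ 2) e])
  · have hp := h3
    rw [abs_of_nonneg a3] at hp
    have e : f1 + f2 + f4 = -f3 := by linarith
    exact fin f3 a3 hp (by nlinarith [mul_nonneg (neg_nonneg.2 a1) (neg_nonneg.2 a2), mul_nonneg (neg_nonneg.2 a1) (neg_nonneg.2 a4), mul_nonneg (neg_nonneg.2 a2) (neg_nonneg.2 a4), congrArg (fun t => t ^ 2) e])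
  · have hp := h4
    rw [abs_of_nonneg a4] at hp
    have e : f1 + f2 + f3 = -f4 := by linarith
    exact fin f4 a4 hp (by nlinarith [mul_nonneg (neg_nonneg.2 a1) (neg_nonneg.2 a2), mul_nonneg (neg_nonneg.2 a1) (neg_nonneg.2 a3), mul_nonneg (neg_nonneg.2 a2) (neg_nonneg.2 a3), congrArg (fun t => t ^ 2) e])
  · exact fin 0 le_rfl hs (by nlinarith [mul_nonneg (neg_nonneg.2 a1) (neg_nonneg.2 a2), mul_nonneg (neg_nonneg.2 a1) (neg_nonneg.2 a3), mul_nonneg (neg_nonneg.2 a1) (neg_nonneg.2 a4), mul_nonneg (neg_nonneg.2 a2) (neg_nonneg.2 a3), mul_nonneg (neg_nonneg.2 a2) (neg_nonneg.2 a4), mul_nonneg (neg_nonneg.2 a3) (neg_nonneg.2 a4), hsum, mul_self_nonneg (f1 + f2 + f3 + f4)])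

/-- Every shadow of the regular tetrahedron `T` has area at least `2 √2`. -/
theorem shadow_T_ge {v : E3} (hv : ‖v‖ = 1) :
    ENNReal.ofReal (2 * Real.sqrt 2) ≤ area (shadow v T) := by
  by_contra hcon
  push Not at hcon
  have hv2 : v 0 ^ 2 + v 1 ^ 2 + v 2 ^ 2 = 1 := by rw [← normsq3, hv]; norm_num
  have hs : 0 < Real.sqrt 2 := Real.sqrt_pos.2 (by norm_num)
  have hs2 : Real.sqrt 2 ^ 2 = 2 := Real.sq_sqrt (by norm_num)
  have conv : ∀ t : ℝ, ENNReal.ofReal (2 * t) ≤ area (shadow v T) → t < Real.sqrt 2 := by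
    intro t ht
    have := (ENNReal.ofReal_lt_ofReal_iff (by positivity)).1 (lt_of_le_of_lt ht hcon)
    linarith
  set f1 : ℝ := v 0 + v 1 + v 2 with hf1
  set f2 : ℝ := v 0 - v 1 - v 2 with hf2
  set f3 : ℝ := -v 0 + v 1 - v 2 with hf3
  set f4 : ℝ := -v 0 - v 1 + v 2 with hf4
  have dabc : det3 (vb - va) (vc - va) v = -4 * f4 := by
    simp [det3, va, vb, vc, hf4]; ring
  have dabd : det3 (vb - va) (vd - va) v = 4 * f3 := by
    simp [det3, va, vb, vd, hf3]; ring
  have dacd : det3 (vc - va) (vd - va) v = -4 * f2 := by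
    simp [det3, va, vc, vd, hf2]; ring
  have dacb : det3 (vc - va) (vb - va) v = 4 * f4 := by
    simp [det3, va, vb, vc, hf4]; ring
  have dadb : det3 (vd - va) (vb - va) v = -4 * f3 := by
    simp [det3, va, vb, vd, hf3]; ring
  have dadc : det3 (vd - va) (vc - va) v = 4 * f2 := by
    simp [det3, va, vc, vd, hf2]; ring
  have dbca : det3 (vc - vb) (va - vb) v = -4 * f4 := by
    simp [det3, va, vb, vc, hf4]; ring
  have dbcd : det3 (vc - vb) (vd - vb) v = 4 * f1 := by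
    simp [det3, vb, vc, vd, hf1]; ring
  have dbdc : det3 (vd - vb) (vc - vb) v = -4 * f1 := by
    simp [det3, vb, vc, vd, hf1]; ring
  have dbda : det3 (vd - vb) (va - vb) v = 4 * f3 := by
    simp [det3, va, vb, vd, hf3]; ring
  have dcda : det3 (vd - vc) (va - vc) v = -4 * f2 := by
    simp [det3, va, vc, vd, hf2]; ring
  have dcdb : det3 (vd - vc) (vb - vc) v = 4 * f1 := by
    simp [det3, vb, vc, vd, hf1]; ring
  have four : |(4 : ℝ)| = 4 := abs_of_pos (by norm_num)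
  refine arith_min (f1 := f1) (f2 := f2) (f3 := f3) (f4 := f4) hs hs2 (by simp only [hf1, hf2, hf3, hf4]; ring)
    (by simp only [hf1, hf2, hf3, hf4]; linear_combination 4 * hv2) ?_ ?_ ?_ ?_ ?_ ?_ ?_ ?_ ?_ ?_
  · exact conv _ (single_bound vb_mem vc_mem vd_mem hv (by rw [dbcd, abs_mul, four]))
  · exact conv _ (single_bound va_mem vd_mem vc_mem hv (by rw [dadc, abs_mul, four]))
  · exact conv _ (single_bound va_mem vb_mem vd_mem hv (by rw [dabd, abs_mul, four]))
  · exact conv _ (single_bound va_mem vc_mem vb_mem hv (by rw [dacb, abs_mul, four]))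
  · intro h
    have := conv _ (pair_bound vc_mem vd_mem va_mem vb_mem hv dcda dcdb (by rwa [mul_comm]))
    rwa [add_comm] at this
  · intro h
    exact conv _ (pair_bound vb_mem vd_mem vc_mem va_mem hv dbdc dbda h)
  · intro h
    have := conv _ (pair_bound vb_mem vc_mem va_mem vd_mem hv dbca dbcd (by rwa [mul_comm]))
    rwa [add_comm] at this
  · intro h
    have := conv _ (pair_bound va_mem vd_mem vb_mem vc_mem hv dadb dadc (by rwa [mul_comm]))
    rwa [add_comm] at this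
  · intro h
    exact conv _ (pair_bound va_mem vc_mem vd_mem vb_mem hv dacd dacb h)
  · intro h
    have := conv _ (pair_bound va_mem vb_mem vc_mem vd_mem hv dabc dabd (by rwa [mul_comm]))
    rwa [add_comm] at this

/-- The smallest shadow of `T` has area at least `2 √2`. -/
theorem minShadowArea_T_ge : ENNReal.ofReal (2 * Real.sqrt 2) ≤ minShadowArea T := by
  unfold minShadowArea
  exact le_iInf fun v => le_iInf fun hv => shadow_T_ge hv

end Vale.Agent.Lib.P243.Fan
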