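import Mathlib
import Vale.Agent.Lib.P243.Fan.AbsChart
import Vale.Agent.Lib.P243.Counter.Oblique
import Vale.Agent.Lib.P243.Counter.AreaQ
import Vale.Agent.Lib.P243.Counter.Cover

/-!
# P243, fan construction: the geometry of one cylinder

Coordinates of `y : E3`: `x = y 0`, `p = (y 1 + y 2) / 2`, `q = (y 1 - y 2) / 2`.
The upper cylinder with parameters `ξ η θ₁ θ₂ α` is `{y | Up ξ η θ₁ θ₂ α x p q}`, the lower one is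
`{y | Up ξ η θ₁ θ₂ α (-x) (-q) p}`.  Both are cylinders over compact bases of area
`√2 (θ₂ - θ₁) α² / 2 / √(1 + ξ²/2 + η²)`.
-/

open MeasureTheory Measure Set Module
open scoped ENNReal RealInnerProductSpace

namespace Vale.Agent.Lib.P243.Fan

open Vale.Agent.Lib.P243 Vale.Agent.Lib.P243.Counter

/-- The wedge condition in the coordinates `(x, p, q)`. -/
def Up (ξ η θ₁ θ₂ α x p q : ℝ) : Prop :=
  0 ≤ 1 - x + p * ξ ∧ 1 - x + p * ξ ≤ α ∧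
    θ₁ * (1 - x + p * ξ) ≤ q - p * η ∧ q - p * η ≤ θ₂ * (1 - x + p * ξ)

/-- The planar wedge, in the coordinates `(q₀, x₀)`. -/
def Wedge (θ₁ θ₂ α : ℝ) : Set (ℝ × ℝ) :=
  {z | z.2 ∈ Icc (1 - α) 1 ∧ θ₁ * (1 - z.2) ≤ z.1 ∧ z.1 ≤ θ₂ * (1 - z.2)}

theorem volume_Wedge (θ₁ θ₂ α : ℝ) (hθ : θ₁ ≤ θ₂) (hα : 0 ≤ α) :
    volume (Wedge θ₁ θ₂ α) = ENNReal.ofReal ((θ₂ - θ₁) * α ^ 2 / 2) := by
  unfold Wedge
  rw [volume_strip (1 - α) 1 (by linarith) (fun q => θ₁ * (1 - q)) (fun q => θ₂ * (1 - q))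
    (by fun_prop) (by fun_prop)
    (fun q hq => mul_le_mul_of_nonneg_right hθ (by linarith [hq.2]))]
  congr 1
  have h : ∀ q : ℝ, θ₂ * (1 - q) - θ₁ * (1 - q) = (θ₂ - θ₁) - (θ₂ - θ₁) * q := fun q => by ring
  simp_rw [h]
  rw [intervalIntegral.integral_sub (by simp) ((by fun_prop : Continuous fun q : ℝ =>
    (θ₂ - θ₁) * q).intervalIntegrable _ _), intervalIntegral.integral_const,
    intervalIntegral.integral_const_mul, integral_id]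
  simp only [smul_eq_mul]
  ring

theorem isCompact_Wedge (θ₁ θ₂ α : ℝ) : IsCompact (Wedge θ₁ θ₂ α) := by
  have hcl : IsClosed (Wedge θ₁ θ₂ α) := by
    have h1 : IsClosed {z : ℝ × ℝ | z.2 ∈ Icc (1 - α) 1} := isClosed_Icc.preimage continuous_snd
    have h2 : IsClosed {z : ℝ × ℝ | θ₁ * (1 - z.2) ≤ z.1} :=
      isClosed_le (by fun_prop) continuous_fst
    have h3 : IsClosed {z : ℝ × ℝ | z.1 ≤ θ₂ * (1 - z.2)} :=
      isClosed_le continuous_fst (by fun_prop)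
    exact h1.inter (h2.inter h3)
  have hsub : Wedge θ₁ θ₂ α ⊆ Icc (-(|θ₁| * |α|)) (|θ₂| * |α|) ×ˢ Icc (1 - α) 1 := by
    rintro z ⟨hz, h1, h2⟩
    have hs0 : 0 ≤ 1 - z.2 := by linarith [hz.2]
    have hs1 : 1 - z.2 ≤ |α| := by linarith [hz.1, le_abs_self α]
    refine ⟨⟨?_, ?_⟩, hz⟩
    · have : -(|θ₁| * |α|) ≤ θ₁ * (1 - z.2) := by
        have h3 : -(|θ₁| * (1 - z.2)) ≤ θ₁ * (1 - z.2) := by
          nlinarith [neg_abs_le θ₁]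
        have h4 : |θ₁| * (1 - z.2) ≤ |θ₁| * |α| :=
          mul_le_mul_of_nonneg_left hs1 (abs_nonneg _)
        linarith
      linarith
    · have : θ₂ * (1 - z.2) ≤ |θ₂| * |α| := by
        have h3 : θ₂ * (1 - z.2) ≤ |θ₂| * (1 - z.2) := by
          nlinarith [le_abs_self θ₂]
        have h4 : |θ₂| * (1 - z.2) ≤ |θ₂| * |α| :=
          mul_le_mul_of_nonneg_left hs1 (abs_nonneg _)
        linarith
      linarith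
  exact (isCompact_Icc.prod isCompact_Icc).of_isClosed_subset hcl hsub

/-- All facts about the cylinder cut out by a planar set in a linear chart. -/
theorem cyl_data {w a c : E3} {g : ℝ} (hw : w ≠ 0) (ha : ⟪a, w⟫ = 0) (hc : ⟪c, w⟫ = 0)
    (hg : 0 < g) (hG : ‖a‖ ^ 2 * ‖c‖ ^ 2 - ⟪a, c⟫ ^ 2 = g) (S : Set (ℝ × ℝ)) :
    ‖‖w‖⁻¹ • w‖ = 1 ∧ base (‖w‖⁻¹ • w) (P a c) S ⊆ plane (‖w‖⁻¹ • w) ∧
    (IsCompact S → IsCompact (base (‖w‖⁻¹ • w) (P a c) S)) ∧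
    area (base (‖w‖⁻¹ • w) (P a c) S) = volume S / ENNReal.ofReal (√g) ∧
    (P a c) ⁻¹' S ⊆ cylinder (‖w‖⁻¹ • w) (base (‖w‖⁻¹ • w) (P a c) S) := by
  have hu := norm_unit hw
  have ha' : ⟪a, ‖w‖⁻¹ • w⟫ = 0 := by rw [inner_smul_right, ha, mul_zero]
  have hc' : ⟪c, ‖w‖⁻¹ • w⟫ = 0 := by rw [inner_smul_right, hc, mul_zero]
  obtain ⟨hker, hbase, -⟩ := abs_chart hu ha' hc' (by rw [hG]; exact hg)
  refine ⟨hu, base_subset_plane _ _ _, fun hS => isCompact_base hu _ hker hS, ?_,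
    preimage_subset_cylinder hu _ (P_unit ha hc) S⟩
  rw [hbase, hG]

/-- Axis, and the two chart functionals, of the upper cylinders. -/
noncomputable def wU (ξ η : ℝ) : E3 := !₂[ξ, 1 + η, 1 - η]
noncomputable def aU (η : ℝ) : E3 := !₂[0, (1 - η) / 2, -(1 + η) / 2]
noncomputable def cU (ξ : ℝ) : E3 := !₂[1, -ξ / 2, -ξ / 2]

/-- Axis, and the two chart functionals, of the lower cylinders. -/
noncomputable def wL (ξ η : ℝ) : E3 := !₂[-ξ, -(1 - η), 1 + η]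
noncomputable def aL (η : ℝ) : E3 := !₂[0, (1 + η) / 2, (1 - η) / 2]
noncomputable def cL (ξ : ℝ) : E3 := !₂[-1, ξ / 2, -ξ / 2]

/-- Unit axes. -/
noncomputable def uU (ξ η : ℝ) : E3 := ‖wU ξ η‖⁻¹ • wU ξ η
noncomputable def uL (ξ η : ℝ) : E3 := ‖wL ξ η‖⁻¹ • wL ξ η

/-- Bases. -/
noncomputable def BU (ξ η θ₁ θ₂ α : ℝ) : Set E3 :=
  base (uU ξ η) (P (aU η) (cU ξ)) (Wedge θ₁ θ₂ α)
noncomputable def BL (ξ η θ₁ θ₂ α : ℝ) : Set E3 :=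
  base (uL ξ η) (P (aL η) (cL ξ)) (Wedge θ₁ θ₂ α)

lemma norm_sq_vec (a b c : ℝ) : ‖(!₂[a, b, c] : E3)‖ ^ 2 = a ^ 2 + b ^ 2 + c ^ 2 := by
  rw [← real_inner_self_eq_norm_sq, inner_vec]
  simp
  ring

lemma vec_ne_zero_of {a b c : ℝ} (h : b + c ≠ 0 ∨ b - c ≠ 0) : (!₂[a, b, c] : E3) ≠ 0 := by
  intro h0
  have h1 : (!₂[a, b, c] : E3) 1 = 0 := by rw [h0]; rfl
  have h2 : (!₂[a, b, c] : E3) 2 = 0 := by rw [h0]; rfl
  simp at h1 h2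
  rcases h with h | h <;> apply h <;> rw [h1, h2] <;> ring

lemma gram_pos (ξ η : ℝ) : 0 < (1 + ξ ^ 2 / 2 + η ^ 2) / 2 := by positivity

theorem dataU (ξ η : ℝ) (S : Set (ℝ × ℝ)) :
    ‖uU ξ η‖ = 1 ∧ base (uU ξ η) (P (aU η) (cU ξ)) S ⊆ plane (uU ξ η) ∧
    (IsCompact S → IsCompact (base (uU ξ η) (P (aU η) (cU ξ)) S)) ∧
    area (base (uU ξ η) (P (aU η) (cU ξ)) S)
      = volume S / ENNReal.ofReal (√((1 + ξ ^ 2 / 2 + η ^ 2) / 2)) ∧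
    (P (aU η) (cU ξ)) ⁻¹' S ⊆ cylinder (uU ξ η) (base (uU ξ η) (P (aU η) (cU ξ)) S) := by
  apply cyl_data (w := wU ξ η) (a := aU η) (c := cU ξ) _ _ _ (gram_pos ξ η)
  · rw [aU, cU, norm_sq_vec, norm_sq_vec, inner_vec]
    simp
    ring
  · exact vec_ne_zero_of (Or.inl (by ring_nf; norm_num))
  · rw [aU, wU, inner_vec]
    simp
    ring
  · rw [cU, wU, inner_vec]
    simp
    ring

theorem dataL (ξ η : ℝ) (S : Set (ℝ × ℝ)) :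
    ‖uL ξ η‖ = 1 ∧ base (uL ξ η) (P (aL η) (cL ξ)) S ⊆ plane (uL ξ η) ∧
    (IsCompact S → IsCompact (base (uL ξ η) (P (aL η) (cL ξ)) S)) ∧
    area (base (uL ξ η) (P (aL η) (cL ξ)) S)
      = volume S / ENNReal.ofReal (√((1 + ξ ^ 2 / 2 + η ^ 2) / 2)) ∧
    (P (aL η) (cL ξ)) ⁻¹' S ⊆ cylinder (uL ξ η) (base (uL ξ η) (P (aL η) (cL ξ)) S) := by
  apply cyl_data (w := wL ξ η) (a := aL η) (c := cL ξ) _ _ _ (gram_pos ξ η)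
  · rw [aL, cL, norm_sq_vec, norm_sq_vec, inner_vec]
    simp
    ring
  · exact vec_ne_zero_of (Or.inr (by ring_nf; norm_num))
  · rw [aL, wL, inner_vec]
    simp
    ring
  · rw [cL, wL, inner_vec]
    simp
    ring

/-- The common value of the base areas. -/
lemma area_value (ξ η θ₁ θ₂ α : ℝ) :
    ENNReal.ofReal ((θ₂ - θ₁) * α ^ 2 / 2) / ENNReal.ofReal (√((1 + ξ ^ 2 / 2 + η ^ 2) / 2))
      = ENNReal.ofReal (√2 * ((θ₂ - θ₁) * α ^ 2 / 2) / √(1 + ξ ^ 2 / 2 + η ^ 2)) := by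
  have hpos : 0 < 1 + ξ ^ 2 / 2 + η ^ 2 := by positivity
  rw [← ENNReal.ofReal_div_of_pos (Real.sqrt_pos.2 (gram_pos ξ η))]
  congr 1
  rw [Real.sqrt_div hpos.le]
  have h2 : (0 : ℝ) < √2 := Real.sqrt_pos.2 (by norm_num)
  have h3 : 0 < √(1 + ξ ^ 2 / 2 + η ^ 2) := Real.sqrt_pos.2 hpos
  field_simp

/-- The upper cylinder. -/
theorem upper_cyl (ξ η θ₁ θ₂ α : ℝ) (hθ : θ₁ ≤ θ₂) (hα : 0 ≤ α) :
    ‖uU ξ η‖ = 1 ∧ BU ξ η θ₁ θ₂ α ⊆ plane (uU ξ η) ∧ IsCompact (BU ξ η θ₁ θ₂ α) ∧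
    area (BU ξ η θ₁ θ₂ α)
      = ENNReal.ofReal (√2 * ((θ₂ - θ₁) * α ^ 2 / 2) / √(1 + ξ ^ 2 / 2 + η ^ 2)) ∧
    ∀ y : E3, Up ξ η θ₁ θ₂ α (y 0) ((y 1 + y 2) / 2) ((y 1 - y 2) / 2) →
      y ∈ cylinder (uU ξ η) (BU ξ η θ₁ θ₂ α) := by
  obtain ⟨h1, h2, h3, h4, h5⟩ := dataU ξ η (Wedge θ₁ θ₂ α)
  refine ⟨h1, h2, h3 (isCompact_Wedge _ _ _), ?_, ?_⟩
  · unfold BU
    rw [h4, volume_Wedge _ _ _ hθ hα, area_value]
  · intro y hy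
    apply h5
    obtain ⟨e1, e2, e3, e4⟩ := hy
    show P (aU η) (cU ξ) y ∈ Wedge θ₁ θ₂ α
    rw [P_apply, aU, cU, inner_vec, inner_vec]
    refine ⟨⟨?_, ?_⟩, ?_, ?_⟩ <;> simp only <;> linarith

/-- The lower cylinder. -/
theorem lower_cyl (ξ η θ₁ θ₂ α : ℝ) (hθ : θ₁ ≤ θ₂) (hα : 0 ≤ α) :
    ‖uL ξ η‖ = 1 ∧ BL ξ η θ₁ θ₂ α ⊆ plane (uL ξ η) ∧ IsCompact (BL ξ η θ₁ θ₂ α) ∧
    area (BL ξ η θ₁ θ₂ α)
      = ENNReal.ofReal (√2 * ((θ₂ - θ₁) * α ^ 2 / 2) / √(1 + ξ ^ 2 / 2 + η ^ 2)) ∧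
    ∀ y : E3, Up ξ η θ₁ θ₂ α (-(y 0)) (-((y 1 - y 2) / 2)) ((y 1 + y 2) / 2) →
      y ∈ cylinder (uL ξ η) (BL ξ η θ₁ θ₂ α) := by
  obtain ⟨h1, h2, h3, h4, h5⟩ := dataL ξ η (Wedge θ₁ θ₂ α)
  refine ⟨h1, h2, h3 (isCompact_Wedge _ _ _), ?_, ?_⟩
  · unfold BL
    rw [h4, volume_Wedge _ _ _ hθ hα, area_value]
  · intro y hy
    apply h5
    obtain ⟨e1, e2, e3, e4⟩ := hy
    show P (aL η) (cL ξ) y ∈ Wedge θ₁ θ₂ α
    rw [P_apply, aL, cL, inner_vec, inner_vec]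
    refine ⟨⟨?_, ?_⟩, ?_, ?_⟩ <;> simp only <;> linarith

end Vale.Agent.Lib.P243.Fan
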